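/-
P235-M, helper882.  Growing a shape into a tree of windows: every leaf of the shape is replaced by
the subtree of a step.  Windows of steps are windows of leaves.
-/
import Vale.Agent.P235.R2.H549.Words
import Vale.Agent.P235.R2.H347.Mix
import Vale.Agent.P235.R2.H462.TreeFam
import Vale.Agent.P235.R2.RED.Defs

namespace Vale.Agent.P235.H882

open Equiv Finset VPBruhat VPTree Red
open scoped Pointwise

variable {T : ℕ}

/-- replace the leaf at position `s` by `g s` -/
def grow (g : ℕ → BT (Fin T)) : Sh → ℕ → BT (Fin T)
  | .leaf, s => g s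
  | .node l r, s => .node (grow g l s) (grow g r (s + l.size))

/-- number of leaves of `g s, …, g (s+k-1)` -/
def off (g : ℕ → BT (Fin T)) (s : ℕ) : ℕ → ℕ
  | 0 => 0
  | k + 1 => off g s k + (g (s + k)).size

theorem off_add (g : ℕ → BT (Fin T)) (s k : ℕ) : ∀ m, off g s (k + m) = off g s k + off g (s + k) m
  | 0 => rfl
  | m + 1 => by
      show off g s (k + m) + (g (s + (k + m))).size = _ + (off g (s + k) m + (g (s + k + m)).size)
      rw [off_add g s k m, Nat.add_assoc s k m]; omega

theorem off_mono (g : ℕ → BT (Fin T)) (s : ℕ) {k m : ℕ} (h : k ≤ m) : off g s k ≤ off g s m := by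
  obtain ⟨d, rfl⟩ := Nat.exists_eq_add_of_le h
  rw [off_add]; omega

theorem size_grow (g : ℕ → BT (Fin T)) : ∀ (t : Sh) (s : ℕ),
    (grow g t s).size = off g s t.size
  | .leaf, s => by
      show (g s).size = 0 + (g (s + 0)).size
      simp
  | .node l r, s => by
      show (grow g l s).size + (grow g r (s + l.size)).size = off g s (l.size + r.size)
      rw [size_grow g l, size_grow g r, off_add]

theorem letters_grow {g : ℕ → BT (Fin T)} (hg : ∀ k, (g k).Letters) : ∀ (t : Sh) (s : ℕ),
    (grow g t s).Letters
  | .leaf, s => hg s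
  | .node l r, s => ⟨letters_grow hg l s, letters_grow hg r _⟩

/-- the product of the configuration over the step `k` -/
def stv (g : ℕ → BT (Fin T)) : (t : Sh) → (s : ℕ) → (grow g t s).Conf → ℕ → Perm (Fin T)
  | .leaf, s, c, k => if k = s then (g s).val c else 1
  | .node l r, s, c, k => if k < s + l.size then stv g l s c.1 k else stv g r (s + l.size) c.2 k

theorem win_congr {v w : ℕ → Perm (Fin T)} {i : ℕ} : ∀ {m : ℕ},
    (∀ j < m, v (i + j) = w (i + j)) → win v i m = win w i m
  | 0, _ => rfl
  | m + 1, h => by
      show v (i + m) * win v i m = w (i + m) * win w i m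
      rw [h m (Nat.lt_succ_self m), win_congr (fun j hj => h j (by omega))]

theorem win_add (v : ℕ → Perm (Fin T)) (i k : ℕ) : ∀ m,
    win v i (k + m) = win v (i + k) m * win v i k
  | 0 => by simp [win]
  | m + 1 => by
      show v (i + (k + m)) * win v i (k + m) = v (i + k + m) * win v (i + k) m * win v i k
      rw [win_add v i k m, Nat.add_assoc, mul_assoc]

theorem pre_off (g : ℕ → BT (Fin T)) : ∀ (t : Sh) (s : ℕ) (c : (grow g t s).Conf) (m : ℕ),
    m ≤ t.size → (grow g t s).pre (off g s m) c = win (stv g t s c) s m
  | .leaf, s, c, m, hm => by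
      have hm' : m ≤ 1 := hm
      rcases Nat.eq_zero_or_pos m with rfl | h0
      · exact BT.pre_zero _ _
      · obtain rfl : m = 1 := by omega
        refine (BT.pre_top (g s) (off g s 1) (le_of_eq (size_grow g .leaf s)) c).trans ?_
        show (g s).val c = (if s + 0 = s then (g s).val c else 1) * 1
        simp
  | .node l r, s, c, m, hm => by
      have hm' : m ≤ l.size + r.size := hm
      by_cases h : m ≤ l.size
      · have h1 : off g s m ≤ (grow g l s).size := by rw [size_grow]; exact off_mono g s h
        refine (BT.pre_node_left (grow g l s) (grow g r (s + l.size)) h1 c).trans ?_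
        refine (pre_off g l s c.1 m h).trans ?_
        refine win_congr fun j hj => ?_
        show _ = (if s + j < s + l.size then stv g l s c.1 (s + j) else _)
        rw [if_pos (by omega)]
      · obtain ⟨k, rfl⟩ := Nat.exists_eq_add_of_le (not_le.1 h).le
        have h1 : (grow g l s).size ≤ off g s (l.size + k) := by
          rw [size_grow]; exact off_mono g s (by omega)
        refine (BT.pre_node_right (grow g l s) (grow g r (s + l.size)) h1 c).trans ?_
        rw [off_add, size_grow, Nat.add_sub_cancel_left,
          pre_off g r (s + l.size) c.2 k (by omega), win_add]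
        have h2 : (grow g l s).val c.1 = win (stv g l s c.1) s l.size := by
          rw [← pre_off g l s c.1 l.size le_rfl, BT.pre_top _ _ (le_of_eq (size_grow g l s))]
        rw [h2]
        congr 1
        · refine win_congr fun j hj => ?_
          show _ = (if s + l.size + j < s + l.size then _ else stv g r (s + l.size) c.2 _)
          rw [if_neg (by omega)]
        · refine win_congr fun j hj => ?_
          show _ = (if s + j < s + l.size then stv g l s c.1 (s + j) else _)
          rw [if_pos (by omega)]

theorem val_grow (g : ℕ → BT (Fin T)) (t : Sh) (s : ℕ) (c : (grow g t s).Conf) :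
    (grow g t s).val c = win (stv g t s c) s t.size := by
  rw [← pre_off g t s c t.size le_rfl, BT.pre_top _ _ (le_of_eq (size_grow g t s))]

/-- windows of steps as quotients of prefixes -/
theorem win_eq (g : ℕ → BT (Fin T)) (t : Sh) (c : (grow g t 0).Conf) {x m : ℕ}
    (h : x + m ≤ t.size) :
    win (stv g t 0 c) x m = (grow g t 0).pre (off g 0 (x + m)) c *
      ((grow g t 0).pre (off g 0 x) c)⁻¹ := by
  rw [pre_off g t 0 c (x + m) h, pre_off g t 0 c x (by omega), win_add, Nat.zero_add,
    mul_assoc, mul_inv_cancel, mul_one]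

/-- the allowed products over the steps `x, …, x+m-1` -/
def pset (g : ℕ → BT (Fin T)) (x : ℕ) : ℕ → Finset (Perm (Fin T))
  | 0 => {1}
  | m + 1 => (g (x + m)).set * pset g x m

theorem pset_add (g : ℕ → BT (Fin T)) (x k : ℕ) : ∀ m,
    pset g x (k + m) = pset g (x + k) m * pset g x k
  | 0 => by
      show pset g x k = {1} * pset g x k
      rw [show ({1} : Finset (Perm (Fin T))) = 1 from rfl, one_mul]
  | m + 1 => by
      show (g (x + (k + m))).set * pset g x (k + m) =
        (g (x + k + m)).set * pset g (x + k) m * pset g x k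
      rw [pset_add g x k m, Nat.add_assoc, mul_assoc]

theorem pset_congr {g g' : ℕ → BT (Fin T)} {x x' : ℕ} : ∀ {m : ℕ},
    (∀ j < m, g (x + j) = g' (x' + j)) → pset g x m = pset g' x' m
  | 0, _ => rfl
  | m + 1, h => by
      show (g (x + m)).set * pset g x m = (g' (x' + m)).set * pset g' x' m
      rw [h m (Nat.lt_succ_self m), pset_congr (fun j hj => h j (by omega))]

theorem set_grow (g : ℕ → BT (Fin T)) : ∀ (t : Sh) (s : ℕ),
    (grow g t s).set = pset g s t.size
  | .leaf, s => by
      show (g s).set = (g (s + 0)).set * {1}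
      rw [show ({1} : Finset (Perm (Fin T))) = 1 from rfl, mul_one, Nat.add_zero]
  | .node l r, s => by
      show (grow g r (s + l.size)).set * (grow g l s).set = pset g s (l.size + r.size)
      rw [set_grow g l, set_grow g r, pset_add]

/-- the windows of the shape are windows of the grown tree -/
theorem exists_node (g : ℕ → BT (Fin T)) : ∀ (t : Sh) (s x y : ℕ), t.IsNode s x y →
    ∃ w : BT.Node (grow g t s), w.set = pset g x (y - x) ∧
      ∀ c, w.val c = win (stv g t s c) x (y - x)
  | .leaf, s, x, y, h => by
      obtain ⟨rfl, rfl⟩ := h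
      refine ⟨BT.Node.here _, ?_, fun c => ?_⟩
      · rw [Nat.add_sub_cancel_left]; exact set_grow g .leaf x
      · rw [Nat.add_sub_cancel_left]; exact val_grow g .leaf x c
  | .node l r, s, x, y, h => by
      rcases h with ⟨rfl, rfl⟩ | h | h
      · refine ⟨BT.Node.here _, ?_, fun c => ?_⟩
        · rw [Nat.add_sub_cancel_left]; exact set_grow g (.node l r) x
        · rw [Nat.add_sub_cancel_left]; exact val_grow g (.node l r) x c
      · obtain ⟨w, hw, hv⟩ := exists_node g l s x y h
        obtain ⟨b1, b2, b3⟩ := Sh.isNode_bounds l s x y h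
        refine ⟨BT.Node.left _ w, hw, fun c => ?_⟩
        refine (hv c.1).trans (win_congr fun j hj => ?_)
        show _ = (if x + j < s + l.size then stv g l s c.1 (x + j) else _)
        rw [if_pos (by omega)]
      · obtain ⟨w, hw, hv⟩ := exists_node g r (s + l.size) x y h
        obtain ⟨b1, b2, b3⟩ := Sh.isNode_bounds r (s + l.size) x y h
        refine ⟨BT.Node.right _ w, hw, fun c => ?_⟩
        refine (hv c.2).trans (win_congr fun j hj => ?_)
        show _ = (if x + j < s + l.size then _ else stv g r (s + l.size) c.2 (x + j))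
        rw [if_neg (by omega)]

/-- the product over a step is allowed -/
theorem stv_mem (g : ℕ → BT (Fin T)) : ∀ (t : Sh) (s : ℕ) (z : Perm (Fin T))
    (c : (grow g t s).Conf), (grow g t s).ker z c ≠ 0 → ∀ k, s ≤ k → k < s + t.size →
    stv g t s c k ∈ (g k).set
  | .leaf, s, z, c, hc, k, h1, h2 => by
      have h2' : k < s + 1 := h2
      obtain rfl : k = s := by omega
      obtain ⟨e, hz⟩ := BT.ker_ne_zero _ _ _ hc
      show (if k = k then (g k).val c else 1) ∈ _
      rw [if_pos rfl]
      have : (g k).val c = z := e
      rw [this]; exact hz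
  | .node l r, s, z, c, hc, k, h1, h2 => by
      have h2' : k < s + (l.size + r.size) := h2
      have hker : (grow g l s).ker ((grow g l s).val c.1) c.1 ≠ 0 ∧
          (grow g r (s + l.size)).ker ((grow g r (s + l.size)).val c.2) c.2 ≠ 0 := by
        have hc' : (if (grow g r (s + l.size)).val c.2 * (grow g l s).val c.1 = z then
          (grow g l s).ker ((grow g l s).val c.1) c.1 *
          (grow g r (s + l.size)).ker ((grow g r (s + l.size)).val c.2) c.2 /
          fac (grow g r (s + l.size)).set (grow g l s).set z else 0) ≠ 0 := hc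
        split_ifs at hc' with hz
        · constructor
          · intro h0; apply hc'; rw [h0]; simp
          · intro h0; apply hc'; rw [h0]; simp
        · exact absurd rfl hc'
      show (if k < s + l.size then stv g l s c.1 k else stv g r (s + l.size) c.2 k) ∈ _
      by_cases h : k < s + l.size
      · rw [if_pos h]; exact stv_mem g l s _ c.1 hker.1 k h1 h
      · rw [if_neg h]; exact stv_mem g r _ _ c.2 hker.2 k (by omega) (by omega)

/-! ### the capacity -/

theorem flux_one (a : ℕ) : flux a (1 : Perm (Fin T)) = 0 := by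
  unfold flux
  rw [Finset.card_eq_zero, Finset.filter_eq_empty_iff]
  intro x _ hx
  have h2 : a ≤ (x : ℕ) := hx.2
  omega

theorem flux_mul_le (a : ℕ) (v u : Perm (Fin T)) : flux a (v * u) ≤ flux a v + flux a u := by
  classical
  have h : flux a v = (Finset.univ.filter
      (fun x : Fin T => ((u x : Fin T) : ℕ) < a ∧ a ≤ (v (u x) : ℕ))).card := by
    unfold flux
    refine (Finset.card_bij (fun x _ => u x) ?_ ?_ ?_).symm
    · intro x hx
      rw [Finset.mem_filter] at hx ⊢
      exact ⟨Finset.mem_univ _, hx.2⟩
    · intro x _ y _ h; exact u.injective h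
    · intro y hy
      rw [Finset.mem_filter] at hy
      refine ⟨u⁻¹ y, ?_, by simp⟩
      rw [Finset.mem_filter]
      exact ⟨Finset.mem_univ _, by simpa using hy.2⟩
  rw [h]
  unfold flux
  refine le_trans (Finset.card_le_card ?_) (Finset.card_union_le _ _)
  intro x hx
  rw [Finset.mem_filter] at hx
  rw [Finset.mem_union, Finset.mem_filter, Finset.mem_filter]
  have h1 := hx.2.1
  have h2 : a ≤ (v (u x) : ℕ) := hx.2.2
  by_cases h3 : ((u x : Fin T) : ℕ) < a
  · exact Or.inl ⟨Finset.mem_univ _, h3, h2⟩
  · exact Or.inr ⟨Finset.mem_univ _, h1, not_lt.1 h3⟩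

/-- the largest flux over the steps `x, …, y-1` -/
def capR (g : ℕ → BT (Fin T)) (a x y : ℕ) : ℕ := (pset g x (y - x)).sup (flux a)

theorem one_mem_pset {g : ℕ → BT (Fin T)} (hg : ∀ k, (1 : Perm (Fin T)) ∈ (g k).set) (x : ℕ) :
    ∀ m, (1 : Perm (Fin T)) ∈ pset g x m
  | 0 => Finset.mem_singleton_self _
  | m + 1 => by
      have := Finset.mul_mem_mul (hg (x + m)) (one_mem_pset hg x m)
      rwa [mul_one] at this

theorem cap_capR {g : ℕ → BT (Fin T)} (hg : ∀ k, (1 : Perm (Fin T)) ∈ (g k).set) (a : ℕ) :
    Cap (fun x y => (capR g a x y : ℝ)) where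
  nonneg _ _ := Nat.cast_nonneg _
  zero x := by
    show ((capR g a x x : ℕ) : ℝ) = 0
    unfold capR
    rw [Nat.sub_self]
    show (((({1} : Finset (Perm (Fin T))).sup (flux a) : ℕ)) : ℝ) = 0
    rw [Finset.sup_singleton, flux_one]; simp
  mono x' x y y' h1 h2 h3 := by
    have : capR g a x y ≤ capR g a x' y' := by
      unfold capR
      refine Finset.sup_mono ?_
      intro v hv
      have e : y' - x' = (x - x') + ((y - x) + (y' - y)) := by omega
      rw [e, pset_add, pset_add]
      have e1 : x' + (x - x') = x := by omega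
      rw [e1]
      have m1 := Finset.mul_mem_mul (one_mem_pset hg (x + (y - x)) (y' - y)) hv
      have m2 := Finset.mul_mem_mul m1 (one_mem_pset hg x' (x - x'))
      rwa [one_mul, mul_one] at m2
    exact_mod_cast this
  sub x y z h1 h2 := by
    have : capR g a x z ≤ capR g a x y + capR g a y z := by
      unfold capR
      refine Finset.sup_le fun v hv => ?_
      have e : z - x = (y - x) + (z - y) := by omega
      rw [e, pset_add] at hv
      have e1 : x + (y - x) = y := by omega
      rw [e1] at hv
      obtain ⟨v1, hv1, v2, hv2, rfl⟩ := Finset.mem_mul.1 hv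
      have f1 : flux a v1 ≤ (pset g y (z - y)).sup (flux a) := Finset.le_sup hv1
      have f2 : flux a v2 ≤ (pset g x (y - x)).sup (flux a) := Finset.le_sup hv2
      exact (flux_mul_le a v1 v2).trans (by omega)
    exact_mod_cast this

theorem flux_win_le {g : ℕ → BT (Fin T)} (a x : ℕ) {m : ℕ} {w : ℕ → Perm (Fin T)}
    (hw : ∀ j, w j ∈ (g j).set) : flux a (win w x m) ≤ capR g a x (x + m) := by
  have : ∀ m, win w x m ∈ pset g x m := by
    intro m
    induction m with
    | zero => exact Finset.mem_singleton_self _
    | succ m ih => exact Finset.mul_mem_mul (hw _) ih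
  unfold capR
  rw [Nat.add_sub_cancel_left]
  exact Finset.le_sup (this m)

end Vale.Agent.P235.H882
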