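/-
P235-M, helper882.  The subtree of one step of the word: a chain of letters whose product set is a
Young subgroup.
-/
import Vale.Agent.P235.R2.H549.Words
import Vale.Agent.P235.R2.RED.Defs

namespace Vale.Agent.P235.H882

open Equiv Finset VPBruhat Red
open scoped Pointwise

variable {T : ℕ}

theorem one_mem_leaf {B : Finset (Perm (Fin T))} (h : (BT.leaf B).Letters) :
    (1 : Perm (Fin T)) ∈ B := by
  rcases h with rfl | ⟨j, hj, rfl⟩
  · simp
  · rw [mem_letter]; exact Or.inl rfl

theorem one_mem_set : {t : BT (Fin T)} → t.Letters → (1 : Perm (Fin T)) ∈ t.set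
  | .leaf _, h => one_mem_leaf h
  | .node l r, h => by
      have h1 := one_mem_set h.1
      have h2 := one_mem_set h.2
      show (1 : Perm (Fin T)) ∈ r.set * l.set
      simpa using Finset.mul_mem_mul h2 h1

open Classical in
/-- the `k`-th letter of a round -/
noncomputable def letter (T : ℕ) (H : Set ℕ) (k : ℕ) : Finset (Perm (Fin T)) :=
  if h : k + 1 < T ∧ k + 1 ∉ H then VPBruhat.letter k h.1 else {1}

theorem letter_isLetter (H : Set ℕ) (k : ℕ) : (BT.leaf (letter T H k)).Letters := by
  unfold letter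
  split_ifs with h
  · exact Or.inr ⟨_, _, rfl⟩
  · exact Or.inl rfl

/-- one round: the letters `0, …, k-1` -/
noncomputable def roundBT (T : ℕ) (H : Set ℕ) : ℕ → BT (Fin T)
  | 0 => .leaf {1}
  | k + 1 => .node (roundBT T H k) (.leaf (letter T H k))

/-- `K` rounds -/
noncomputable def roundsBT (T : ℕ) (H : Set ℕ) : ℕ → BT (Fin T)
  | 0 => .leaf {1}
  | K + 1 => .node (roundBT T H T) (roundsBT T H K)

/-- the subtree of one step -/
noncomputable def stepBT (T : ℕ) (H : Set ℕ) : BT (Fin T) := roundsBT T H (T * T * T)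

theorem roundBT_letters (H : Set ℕ) : ∀ k, (roundBT T H k).Letters
  | 0 => Or.inl rfl
  | k + 1 => ⟨roundBT_letters H k, letter_isLetter H k⟩

theorem roundsBT_letters (H : Set ℕ) : ∀ K, (roundsBT T H K).Letters
  | 0 => Or.inl rfl
  | K + 1 => ⟨roundBT_letters H T, roundsBT_letters H K⟩

theorem stepBT_letters (H : Set ℕ) : (stepBT T H).Letters := roundsBT_letters H _

theorem fixes_one (H : Set ℕ) : Fixes H (1 : Perm (Fin T)) := fun _ _ _ => Iff.rfl

theorem fixes_mul {H : Set ℕ} {u v : Perm (Fin T)} (hu : Fixes H u) (hv : Fixes H v) :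
    Fixes H (u * v) := fun a ha x => (hu a ha (v x)).trans (hv a ha x)

theorem letter_fixes {H : Set ℕ} {k : ℕ} {v : Perm (Fin T)} (hv : v ∈ letter T H k) :
    Fixes H v := by
  unfold letter at hv
  split_ifs at hv with h
  · rw [mem_letter] at hv
    rcases hv with rfl | rfl
    · exact fixes_one H
    · intro a ha x
      have hne : a ≠ k + 1 := fun hc => h.2 (hc ▸ ha)
      rw [adj_val]
      split_ifs with h1 h2
      · omega
      · omega
      · exact Iff.rfl
  · rw [Finset.mem_singleton] at hv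
    rw [hv]; exact fixes_one H

theorem roundBT_fixes {H : Set ℕ} : ∀ (k : ℕ) {v : Perm (Fin T)}, v ∈ (roundBT T H k).set →
    Fixes H v
  | 0, v, hv => by
      have : v = 1 := Finset.mem_singleton.1 hv
      rw [this]; exact fixes_one H
  | k + 1, v, hv => by
      obtain ⟨x, hx, y, hy, rfl⟩ := Finset.mem_mul.1 hv
      exact fixes_mul (letter_fixes hx) (roundBT_fixes k hy)

theorem roundsBT_fixes {H : Set ℕ} : ∀ (k : ℕ) {v : Perm (Fin T)}, v ∈ (roundsBT T H k).set →
    Fixes H v
  | 0, v, hv => by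
      have : v = 1 := Finset.mem_singleton.1 hv
      rw [this]; exact fixes_one H
  | k + 1, v, hv => by
      obtain ⟨x, hx, y, hy, rfl⟩ := Finset.mem_mul.1 hv
      exact fixes_mul (roundsBT_fixes k hx) (roundBT_fixes T hy)

theorem mem_roundBT {H : Set ℕ} {k : ℕ} (h1 : k + 1 < T) (h2 : k + 1 ∉ H) :
    ∀ m, k < m → adj k h1 ∈ (roundBT T H m).set
  | 0, h => absurd h (Nat.not_lt_zero _)
  | m + 1, h => by
      by_cases hm : k < m
      · have := mem_roundBT h1 h2 m hm
        show _ ∈ letter T H m * (roundBT T H m).set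
        simpa using Finset.mul_mem_mul (one_mem_leaf (letter_isLetter H m)) this
      · obtain rfl : k = m := by omega
        have e : adj k h1 ∈ letter T H k := by
          unfold letter
          rw [dif_pos ⟨h1, h2⟩, mem_letter]; exact Or.inr rfl
        show _ ∈ letter T H k * (roundBT T H k).set
        simpa using Finset.mul_mem_mul e (one_mem_set (roundBT_letters H k))

/-- the measure -/
def mu (v : Perm (Fin T)) : ℕ := ∑ i : Fin T, (i : ℕ) * (v i : ℕ)

theorem mu_le (v : Perm (Fin T)) : mu v ≤ T * T * T := by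
  unfold mu
  calc ∑ i : Fin T, (i : ℕ) * (v i : ℕ) ≤ ∑ _i : Fin T, T * T :=
        Finset.sum_le_sum fun i _ => Nat.mul_le_mul i.2.le (v i).2.le
    _ = T * T * T := by simp [mul_assoc]

theorem mu_swap {v : Perm (Fin T)} {p q : Fin T} (hpq : p < q) (h : v q < v p) :
    mu v < mu (v * swap p q) := by
  unfold mu
  have hne : p ≠ q := hpq.ne
  rw [← Finset.add_sum_erase _ _ (Finset.mem_univ p),
    ← Finset.add_sum_erase _ _ (Finset.mem_erase.2 ⟨hne.symm, Finset.mem_univ q⟩),
    ← Finset.add_sum_erase (a := p) (s := Finset.univ)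
      (f := fun i : Fin T => (i : ℕ) * ((v * swap p q) i : ℕ)) (Finset.mem_univ p),
    ← Finset.add_sum_erase (a := q) (s := Finset.univ.erase p)
      (f := fun i : Fin T => (i : ℕ) * ((v * swap p q) i : ℕ))
      (Finset.mem_erase.2 ⟨hne.symm, Finset.mem_univ q⟩)]
  have e : ∑ i ∈ (Finset.univ.erase p).erase q, (i : ℕ) * ((v * swap p q) i : ℕ) =
      ∑ i ∈ (Finset.univ.erase p).erase q, (i : ℕ) * (v i : ℕ) := by
    refine Finset.sum_congr rfl fun i hi => ?_
    rw [Finset.mem_erase, Finset.mem_erase] at hi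
    rw [Perm.mul_apply, swap_apply_of_ne_of_ne hi.2.1 hi.1]
  rw [e]
  simp only [Perm.mul_apply, swap_apply_left, swap_apply_right]
  have h1 : (p : ℕ) < q := hpq
  have h2 : (v q : ℕ) < v p := h
  nlinarith

theorem exists_descent {v : Perm (Fin T)} (hv : v ≠ 1) :
    ∃ k, ∃ h : k + 1 < T, v ⟨k + 1, h⟩ < v ⟨k, by omega⟩ := by
  by_contra hc
  push Not at hc
  apply hv
  rcases T with _ | n
  · ext x; exact x.elim0
  have hm : StrictMono v := by
    rw [Fin.strictMono_iff_lt_succ]
    intro i
    have := hc i.1 (by have := i.2; omega)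
    refine lt_of_le_of_ne this ?_
    intro he
    have := v.injective he
    simp [Fin.ext_iff] at this
  have e : hm.orderIsoOfSurjective v v.surjective = OrderIso.refl _ := Subsingleton.elim _ _
  ext x
  have := congrArg (fun f : Fin (n + 1) ≃o Fin (n + 1) => f x) e
  simp only [StrictMono.orderIsoOfSurjective, OrderIso.refl_apply] at this
  exact congrArg Fin.val this

theorem mem_rounds {H : Set ℕ} (K : ℕ) : ∀ (v : Perm (Fin T)), Fixes H v →
    T * T * T ≤ K + mu v → v ∈ (roundsBT T H K).set := by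
  induction K with
  | zero =>
      intro v hv hK
      by_cases h1 : v = 1
      · rw [h1]; exact one_mem_set (roundsBT_letters H 0)
      obtain ⟨k, hk, hd⟩ := exists_descent h1
      have hlt := mu_swap (v := v) (p := ⟨k, by omega⟩) (q := ⟨k + 1, hk⟩)
        (by simp [Fin.lt_def]) hd
      have hle := mu_le (v * swap ⟨k, by omega⟩ ⟨k + 1, hk⟩)
      omega
  | succ K ih =>
      intro v hv hK
      by_cases h1 : v = 1
      · rw [h1]; exact one_mem_set (roundsBT_letters H (K + 1))
      obtain ⟨k, hk, hd⟩ := exists_descent h1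
      have hkH : k + 1 ∉ H := by
        intro hc
        have a1 := (hv _ hc ⟨k, by omega⟩).2 (by simp)
        have a2 : ¬ ((v ⟨k + 1, hk⟩ : ℕ) < k + 1) := by
          rw [hv _ hc]; simp
        have : (v ⟨k + 1, hk⟩ : ℕ) < v ⟨k, by omega⟩ := hd
        omega
      have hlt : mu v < mu (v * adj k hk) := mu_swap (by simp [Fin.lt_def]) hd
      have hs : Fixes H (adj k hk) :=
        roundBT_fixes (k + 1) (mem_roundBT hk hkH (k + 1) (Nat.lt_succ_self k))
      have ih := ih (v * adj k hk) (fixes_mul hv hs) (by omega)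
      show v ∈ (roundsBT T H K).set * (roundBT T H T).set
      have := Finset.mul_mem_mul ih (mem_roundBT hk hkH T (by omega))
      rwa [mul_assoc, adj_mul_self, mul_one] at this

theorem mem_stepBT {H : Set ℕ} {v : Perm (Fin T)} : v ∈ (stepBT T H).set ↔ Fixes H v :=
  ⟨fun h => roundsBT_fixes _ h, fun h => mem_rounds _ v h (by omega)⟩

end Vale.Agent.P235.H882
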