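/-
P235-M, helper882.  Assembly of the words theorem: GammaConst c (statement (S)) and QM K (quasi
monotonicity in the window) give `Red.MStar f` with `f N = C (log₂ (log₂ N + 1) + 3)`.
-/
import Vale.Agent.P235.R2.H882.Steps
import Vale.Agent.P235.R2.H882.Grow

namespace Vale.Agent.P235.H882

open Equiv Finset VPBruhat VPTree Red
open scoped Pointwise

/-- **(QM)** quasi monotonicity: for every letter tree with an increasing root law the expected
flux of a window is at least `1/K` times the expected flux of every sub-window. -/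
def QM (K : ℝ) : Prop :=
  ∀ (n : ℕ) (t : BT (Fin n)), t.Letters → ∀ P : Perm (Fin n) → ℝ, (∀ z ∈ t.set, 0 ≤ P z) →
    IncOn t.set P → ∀ a m m' k' k : ℕ, m ≤ m' → m' ≤ k' → k' ≤ k → k ≤ t.size →
      ∑ c, t.law P c * (flux a (t.pre k' c * (t.pre m' c)⁻¹) : ℝ) ≤
        K * ∑ c, t.law P c * (flux a (t.pre k c * (t.pre m c)⁻¹) : ℝ)

variable {T : ℕ}

/-- the step subtrees of the tree with shift `u` -/
noncomputable def gst (T : ℕ) (H : ℕ → Set ℕ) (u k : ℕ) : BT (Fin T) := stepBT T (H (k - u))

/-- the constant root law -/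
noncomputable def unif (t : BT (Fin T)) (_ : Perm (Fin T)) : ℝ := 1 / (t.set.card : ℝ)

theorem unif_nonneg (t : BT (Fin T)) (z : Perm (Fin T)) : 0 ≤ unif t z := by
  unfold unif; positivity

theorem unif_sum {t : BT (Fin T)} (ht : t.Letters) : ∑ z ∈ t.set, unif t z = 1 := by
  unfold unif
  rw [Finset.sum_const, nsmul_eq_mul, mul_one_div, div_self]
  exact_mod_cast (Finset.card_pos.2 ⟨1, one_mem_set ht⟩).ne'

theorem unif_inc (t : BT (Fin T)) : IncOn t.set (unif t) := fun _ _ _ _ _ => le_rfl

/-- one tree of the family -/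
noncomputable def tr (T : ℕ) (H : ℕ → Set ℕ) (J : ℕ) (i : Idx J) : BT (Fin T) :=
  grow (gst T H (famU J i)) (famT J i) 0

theorem tr_letters (H : ℕ → Set ℕ) (J : ℕ) (i : Idx J) : (tr T H J i).Letters :=
  letters_grow (fun _ => stepBT_letters _) _ _

open Classical in
/-- the random configuration -/
noncomputable def cfg (T : ℕ) (H : ℕ → Set ℕ) (J : ℕ) (i : Idx J) (c : (tr T H J i).Conf) (k : ℕ) :
    Perm (Fin T) :=
  if Fixes (H k) (stv (gst T H (famU J i)) (famT J i) 0 c (k + famU J i)) then
    stv (gst T H (famU J i)) (famT J i) 0 c (k + famU J i) else 1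

theorem cfg_fixes (H : ℕ → Set ℕ) (J : ℕ) (i : Idx J) (c : (tr T H J i).Conf) (k : ℕ) :
    Fixes (H k) (cfg T H J i c k) := by
  unfold cfg
  split_ifs with h
  · exact h
  · exact fixes_one _

theorem win_shift {v w : ℕ → Perm (Fin T)} {x u : ℕ} : ∀ {m : ℕ},
    (∀ j < m, v (x + j) = w (x + u + j)) → win v x m = win w (x + u) m
  | 0, _ => rfl
  | m + 1, h => by
      show v (x + m) * win v x m = w (x + u + m) * win w (x + u) m
      rw [h m (Nat.lt_succ_self m), win_shift (fun j hj => h j (by omega))]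

/-- on the support of the law the configuration is the configuration of the tree -/
theorem win_cfg {H : ℕ → Set ℕ} {J : ℕ} {i : Idx J} {c : (tr T H J i).Conf}
    (hc : (tr T H J i).ker ((tr T H J i).val c) c ≠ 0) {x m : ℕ}
    (h : x + m + famU J i ≤ (famT J i).size) :
    win (cfg T H J i c) x m =
      win (stv (gst T H (famU J i)) (famT J i) 0 c) (x + famU J i) m := by
  refine win_shift fun j hj => ?_
  have h1 := stv_mem (gst T H (famU J i)) (famT J i) 0 _ c hc (x + j + famU J i) (Nat.zero_le _)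
    (by omega)
  have h2 : Fixes (H (x + j)) (stv (gst T H (famU J i)) (famT J i) 0 c (x + j + famU J i)) := by
    unfold gst at h1
    rw [mem_stepBT, Nat.add_sub_cancel] at h1
    exact h1
  have e : x + j + famU J i = x + famU J i + j := by omega
  unfold cfg
  rw [if_pos h2, e]

theorem law_ne {t : BT (Fin T)} {P : Perm (Fin T) → ℝ} {c : t.Conf} (h : t.law P c ≠ 0) :
    t.ker (t.val c) c ≠ 0 := by
  intro h0; apply h; unfold BT.law; rw [h0, mul_zero]

/-- one tree of the family: the window is served as well as the node -/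
theorem tree_key {c K : ℝ} (hc : GammaConst c) (hQ : QM K) (H : ℕ → Set ℕ) (J : ℕ) (i : Idx J)
    {x m a p q : ℕ} (hfit : x + m + famU J i ≤ (famT J i).size)
    (hn : (famT J i).IsNode 0 p q) (hl : x + famU J i ≤ p) (hr : q ≤ x + m + famU J i) :
    c * (capR (gst T H 0) a (p - famU J i) (q - famU J i) : ℝ) ≤
      K * ∑ d, (tr T H J i).law (unif (tr T H J i)) d *
        (flux a (win (cfg T H J i d) x m) : ℝ) := by
  obtain ⟨b1, b2, b3⟩ := Sh.isNode_bounds _ _ _ _ hn
  obtain ⟨nd, hset, hval⟩ : ∃ nd : BT.Node (tr T H J i),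
      nd.set = pset (gst T H (famU J i)) p (q - p) ∧
      ∀ d : (tr T H J i).Conf, nd.val d =
        win (stv (gst T H (famU J i)) (famT J i) 0 d) p (q - p) :=
    exists_node (gst T H (famU J i)) (famT J i) 0 _ _ hn
  -- the allowed set of the node
  have hps : pset (gst T H 0) (p - famU J i) (q - famU J i - (p - famU J i)) =
      pset (gst T H (famU J i)) p (q - p) := by
    have e1 : q - famU J i - (p - famU J i) = q - p := by omega
    rw [e1]
    refine pset_congr fun j hj => ?_
    unfold gst
    have e2 : p - famU J i + j - 0 = p + j - famU J i := by omega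
    rw [e2]
  -- the extremal element
  obtain ⟨z, hz, hzs⟩ := Finset.exists_mem_eq_sup
    (pset (gst T H (famU J i)) p (q - p))
    ⟨1, one_mem_pset (fun k => one_mem_set (stepBT_letters _)) _ _⟩ (flux a)
  have hcapz : capR (gst T H 0) a (p - famU J i) (q - famU J i) = flux a z := by
    unfold capR; rw [hps]; exact hzs
  have hserv := BT.Node.served hc (tr_letters H J i)
    (P := unif (tr T H J i)) (fun z _ => unif_nonneg _ z) (unif_inc _) nd a
    (z := z) (by rw [hset]; exact hz)
  rw [unif_sum (tr_letters H J i), mul_one] at hserv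
  rw [hcapz]
  refine hserv.trans ?_
  -- both windows as quotients of prefixes
  have hq := hQ T (tr T H J i) (tr_letters H J i) (unif (tr T H J i))
    (fun z _ => unif_nonneg _ z) (unif_inc _) a
    (off (gst T H (famU J i)) 0 (x + famU J i)) (off (gst T H (famU J i)) 0 p) (off (gst T H (famU J i)) 0 q)
    (off (gst T H (famU J i)) 0 (x + m + famU J i)) (off_mono _ _ (by omega)) (off_mono _ _ (by omega))
    (off_mono _ _ (by omega))
    (by
      have e := size_grow (gst T H (famU J i)) (famT J i) 0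
      have h3 : x + m + famU J i ≤ (famT J i).size := by
        have := hfit
        omega
      calc off (gst T H (famU J i)) 0 (x + m + famU J i) ≤ off (gst T H (famU J i)) 0 (famT J i).size :=
            off_mono _ _ h3
        _ = _ := e.symm)
  have l1 : ∑ d, (tr T H J i).law (unif (tr T H J i)) d * (flux a (nd.val d) : ℝ) =
      ∑ d, (tr T H J i).law (unif (tr T H J i)) d *
        (flux a ((tr T H J i).pre (off (gst T H (famU J i)) 0 q) d *
          ((tr T H J i).pre (off (gst T H (famU J i)) 0 p) d)⁻¹) : ℝ) := by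
    refine Finset.sum_congr rfl fun d _ => ?_
    have h4 : p + (q - p) = q := by omega
    have e := win_eq (gst T H (famU J i)) (famT J i) d (x := p) (m := q - p)
      (by omega)
    rw [h4] at e
    rw [hval d]
    exact congrArg (fun v => (tr T H J i).law (unif (tr T H J i)) d * ((flux a v : ℕ) : ℝ)) e
  have l2 : ∑ d, (tr T H J i).law (unif (tr T H J i)) d *
        (flux a ((tr T H J i).pre (off (gst T H (famU J i)) 0 (x + m + famU J i)) d *
          ((tr T H J i).pre (off (gst T H (famU J i)) 0 (x + famU J i)) d)⁻¹) : ℝ) =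
      ∑ d, (tr T H J i).law (unif (tr T H J i)) d *
        (flux a (win (cfg T H J i d) x m) : ℝ) := by
    refine Finset.sum_congr rfl fun d _ => ?_
    by_cases h0 : (tr T H J i).law (unif (tr T H J i)) d = 0
    · rw [h0, zero_mul, zero_mul]
    · have h5 := win_cfg (law_ne h0) (x := x) (m := m) (by have := hfit; omega)
      have e := win_eq (gst T H (famU J i)) (famT J i) d (x := x + famU J i) (m := m)
        (by have := hfit; omega)
      have h6 : x + famU J i + m = x + m + famU J i := by omega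
      rw [h6] at e
      have e' : win (cfg T H J i d) x m =
          (tr T H J i).pre (off (gst T H (famU J i)) 0 (x + m + famU J i)) d *
          ((tr T H J i).pre (off (gst T H (famU J i)) 0 (x + famU J i)) d)⁻¹ := h5.trans e
      rw [e']
  rw [l1]
  rw [l2] at hq
  exact hq

theorem final_real {F X S c K j L : ℝ} (hc0 : 0 < c) (hK : 0 ≤ K) (hS : 0 ≤ S) (hj : 0 ≤ j)
    (h1 : F ≤ 16 * j * X) (h2 : c * X ≤ K * S) (h3 : j ≤ L) : F ≤ 16 * K / c * L * S := by
  have h4 : X ≤ K * S / c := by
    rw [le_div_iff₀ hc0, mul_comm]; exact h2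
  have h5 : 0 ≤ K * S / c := by positivity
  calc F ≤ 16 * j * X := h1
    _ ≤ 16 * j * (K * S / c) := mul_le_mul_of_nonneg_left h4 (by positivity)
    _ ≤ 16 * L * (K * S / c) := mul_le_mul_of_nonneg_right (by linarith) h5
    _ = _ := by ring

/-- **Assembly.** -/
theorem mstar_of {c K : ℝ} (hc : GammaConst c) (hK : 0 ≤ K) (hQ : QM K) :
    MStar (fun N => 16 * K / c * ((Nat.log 2 (Nat.log 2 N + 1) : ℝ) + 3)) := by
  classical
  intro N T H
  set J : ℕ := Nat.log 2 (Nat.log 2 N + 2) + 1 with hJ
  have hJ1 : 1 ≤ J := by omega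
  have hc0 : 0 < c := hc.1
  -- the length of the word fits
  have hN : N ≤ 2 ^ (2 ^ J - 1) := by
    have h1 : Nat.log 2 N + 2 < 2 ^ J := Nat.lt_pow_succ_log_self (by norm_num) _
    have h2 : N < 2 ^ (Nat.log 2 N + 1) := Nat.lt_pow_succ_log_self (by norm_num) _
    exact h2.le.trans (Nat.pow_le_pow_right (by norm_num) (by omega))
  have hfit : ∀ i : Idx J, N + famU J i ≤ (famT J i).size := by
    intro i
    rw [famT_size]
    have h1 := famU_le hJ1 i
    have h2 : 2 ^ (2 ^ J) = 2 ^ (2 ^ J - 1) + 2 ^ (2 ^ J - 1) := by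
      have : 1 ≤ 2 ^ J := Nat.one_le_two_pow
      rw [← two_mul, ← pow_succ']
      congr 1; omega
    omega
  refine ⟨Σ i : Idx J, (tr T H J i).Conf, inferInstance,
    fun ω => famW J ω.1 * (tr T H J ω.1).law (unif (tr T H J ω.1)) ω.2,
    fun ω => cfg T H J ω.1 ω.2, ?_, ?_, ?_, ?_⟩
  · rintro ⟨i, d⟩
    exact mul_nonneg (famW_nonneg J i) (BT.law_nonneg (fun z _ => unif_nonneg _ z) d)
  · rw [Fintype.sum_sigma]
    have : ∀ i : Idx J, ∑ d, famW J i * (tr T H J i).law (unif (tr T H J i)) d = famW J i := by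
      intro i
      rw [← Finset.mul_sum, BT.sum_law, unif_sum (tr_letters H J i), mul_one]
    rw [Finset.sum_congr rfl fun i _ => this i, famW_sum hJ1]
  · rintro ⟨i, d⟩ k
    exact cfg_fixes H J i d k
  intro x m a hxm w hw
  -- the empty window
  rcases Nat.eq_zero_or_pos m with rfl | hm
  · have h0 : ∀ v : ℕ → Perm (Fin T), flux a (win v x 0) = 0 := fun v => flux_one a
    simp only [h0, Nat.cast_zero, mul_zero, Finset.sum_const_zero, le_refl]
  -- the capacity of the word
  have h1mem : ∀ k, (1 : Perm (Fin T)) ∈ (gst T H 0 k).set := fun k =>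
    one_mem_set (stepBT_letters _)
  have hcap := cap_capR h1mem a
  obtain ⟨M, hM, hR⟩ := tree_family hJ1 hcap (x := x) (y := x + m) (by omega) (by omega)
  have hflux : (flux a (win w x m) : ℝ) ≤ capR (gst T H 0) a x (x + m) := by
    have : flux a (win w x m) ≤ capR (gst T H 0) a x (x + m) := by
      refine flux_win_le a x fun j => ?_
      show w j ∈ (stepBT T (H (j - 0))).set
      rw [mem_stepBT, Nat.sub_zero]; exact hw j
    exact_mod_cast this
  have key : ∀ i : Idx J,
      c * (capR (gst T H 0) a ((M i).1 - famU J i) ((M i).2 - famU J i) : ℝ) ≤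
      K * ∑ d, (tr T H J i).law (unif (tr T H J i)) d *
        (flux a (win (cfg T H J i d) x m) : ℝ) := fun i =>
    tree_key hc hQ H J i (by have := hfit i; omega) (hM i).1 (hM i).2.1 (hM i).2.2
  -- the final inequality
  have hsum : ∑ ω : (Σ i : Idx J, (tr T H J i).Conf),
      famW J ω.1 * (tr T H J ω.1).law (unif (tr T H J ω.1)) ω.2 *
        (flux a (win (cfg T H J ω.1 ω.2) x m) : ℝ) =
      ∑ i, famW J i * ∑ d, (tr T H J i).law (unif (tr T H J i)) d *
        (flux a (win (cfg T H J i d) x m) : ℝ) := by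
    rw [Fintype.sum_sigma]
    refine Finset.sum_congr rfl fun i _ => ?_
    rw [Finset.mul_sum]
    exact Finset.sum_congr rfl fun d _ => by ring
  rw [hsum]
  have hS0 : 0 ≤ ∑ i, famW J i * ∑ d, (tr T H J i).law (unif (tr T H J i)) d *
        (flux a (win (cfg T H J i d) x m) : ℝ) := by
    refine Finset.sum_nonneg fun i _ => mul_nonneg (famW_nonneg J i)
      (Finset.sum_nonneg fun d _ => mul_nonneg
        (BT.law_nonneg (fun z _ => unif_nonneg _ z) d) (Nat.cast_nonneg _))
  have hA : c * ∑ i, famW J i *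
      (capR (gst T H 0) a ((M i).1 - famU J i) ((M i).2 - famU J i) : ℝ) ≤
      K * ∑ i, famW J i * ∑ d, (tr T H J i).law (unif (tr T H J i)) d *
        (flux a (win (cfg T H J i d) x m) : ℝ) := by
    rw [Finset.mul_sum, Finset.mul_sum]
    refine Finset.sum_le_sum fun i _ => ?_
    have := mul_le_mul_of_nonneg_left (key i) (famW_nonneg J i)
    calc c * (famW J i * _) = famW J i * (c * _) := by ring
      _ ≤ _ := this
      _ = _ := by ring
  have hJle : (J : ℝ) + 1 ≤ (Nat.log 2 (Nat.log 2 N + 1) : ℝ) + 3 := by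
    have h1 : Nat.log 2 (Nat.log 2 N + 2) ≤ Nat.log 2 (Nat.log 2 N + 1) + 1 := by
      have h2 : Nat.log 2 ((Nat.log 2 N + 1) * 2) = Nat.log 2 (Nat.log 2 N + 1) + 1 :=
        Nat.log_mul_base (by norm_num) (by omega)
      rw [← h2]
      exact Nat.log_mono_right (by omega)
    have h3 : J + 1 ≤ Nat.log 2 (Nat.log 2 N + 1) + 3 := by omega
    exact_mod_cast h3
  exact final_real hc0 hK hS0 (by positivity) (hflux.trans hR) hA hJle

end Vale.Agent.P235.H882
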