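/-
P235-M, helper882.  The words theorem: `Red.MStar f` with `f N = C (log₂ (log₂ N + 1) + 3)`.
-/
import Vale.Agent.P235.R2.H882.MStarAsm
import Vale.Agent.P235.R2.H216.STransfer
import Vale.Agent.P235.R2.H276.QM
import Vale.Agent.P235.R2.H347.Pref2

namespace Vale.Agent.P235.H882

open VPBruhat

/-- quasi monotonicity with the constant `32` (helper276, helper347) -/
theorem qm32 : QM 32 := fun _ t ht _ h0 hP a _ _ _ _ h1 h2 h3 h4 =>
  Vale.Agent.P235.R2.H276.qm_flux a t ht.ok ht.isLet h0 hP h1 h2 h3 h4

/-- **The words theorem.**  For every word of `N` steps (step `i` allows the Young subgroup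
`Fixes (H i)`) there is a random configuration with one permutation from every step such that the
expected flux of every window at every level is at least `1 / (C (log log N + 3))` times the largest
flux which any configuration can have there. -/
theorem mStar : Red.MStar (fun N => 228352 * ((Nat.log 2 (Nat.log 2 N + 1) : ℝ) + 3)) := by
  have h := mstar_of Vale.Agent.P235.H216.gammaConst (by norm_num) qm32
  have e : (16 * 32 / (1 / 446) : ℝ) = 228352 := by norm_num
  rwa [e] at h

end Vale.Agent.P235.H882
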